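import Crest.Agent.R177.Switch.Key

/-!
# Row 177, task Switch: switchings of matchings
-/

set_option autoImplicit false
set_option linter.unusedSectionVars false

namespace Crest.Agent.R177.SwitchAux

open Equiv

variable {T C U W : Type} [Fintype T] [DecidableEq T] [Fintype C] [DecidableEq C] [Fintype U]
  [DecidableEq U] [Fintype W] [DecidableEq W] (Y : SlotSys T C U W) {π : Perm T}
  {τ : T → T → C → C} {q N : ℕ}

theorem cls_swap {e e' : Y.E} (h : Y.cls e' = Y.cls e) (a : Y.E) :
    Y.cls (swap e e' a) = Y.cls a := by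
  by_cases h1 : a = e
  · subst h1; simp [h]
  · by_cases h2 : a = e'
    · subst h2; simp [h]
    · rw [swap_apply_of_ne_of_ne h1 h2]

/-- switch the partners of two edges of the same class -/
def switch (σ : Y.Matching) (e e' : Y.E) : Y.Matching :=
  if h : Y.cls e' = Y.cls e then
    ⟨(swap e e').trans σ.1, fun a => by
      rw [Equiv.trans_apply, σ.2, cls_swap Y h]⟩
  else σ

theorem switch_apply (σ : Y.Matching) {e e' : Y.E} (h : Y.cls e' = Y.cls e) (a : Y.E) :
    (switch Y σ e e').1 a = σ.1 (swap e e' a) := by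
  simp [switch, h]

theorem switch_avoid (σ : Y.Matching) {e e' : Y.E} (hc : Y.cls e' = Y.cls e) {g h : ℕ}
    (hh : h ≤ g)
    (hgirth : ∀ x l, (Y.graph σ).IsWalk x l x → NB l → l ≠ [] → h ≤ l.length)
    (hfar : Far (Y.graph σ) g e e') (x : U ⊕ W) (l : List (Y.E × Bool))
    (hw : (Y.graph (switch Y σ e e')).IsWalk x l x) (hnb : NB l) (hlen : l.length ≤ h) :
    (∀ d ∈ l, ¬ (d.1 = e ∨ d.1 = e')) ∧ (Y.graph σ).IsWalk x l x := by
  have hs : ∀ a, (Y.graph (switch Y σ e e')).src a = (Y.graph σ).src a := fun _ => rfl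
  have ht : ∀ a, (Y.graph (switch Y σ e e')).tgt a = (Y.graph σ).tgt (swap e e' a) := by
    intro a
    simp only [SlotSys.graph, switch_apply Y σ hc]
  have h1 := key (Y.graph σ) _ e e' hs ht (Y.graph_bip σ) hh hgirth hfar x l hw hnb hlen
  exact ⟨h1, (isWalk_switch (Y.graph σ) _ e e' hs ht l h1 x x).mp hw⟩

theorem matching_nonempty (hB : Y.Bounds π τ q N) : Nonempty Y.Matching := by
  classical
  have hf : ∀ ξ : T × C, Nonempty ({e : Y.E // Y.cls e = ξ} ≃ {s : Y.WS // s.1.2 = ξ}) := by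
    intro ξ
    apply Fintype.card_eq.mp
    rw [Fintype.card_subtype, Fintype.card_subtype]
    convert hB.card_eq ξ
  let f : ∀ ξ : T × C, {e : Y.E // Y.cls e = ξ} ≃ {s : Y.WS // s.1.2 = ξ} :=
    fun ξ => (hf ξ).some
  exact ⟨⟨Equiv.ofFiberEquiv (f := Y.cls) (g := fun s : Y.WS => s.1.2) f,
    fun e => Equiv.ofFiberEquiv_map (f := Y.cls) (g := fun s : Y.WS => s.1.2) f e⟩⟩

open Classical in
/-- the admissible partners for a switch at `e` -/
noncomputable def partners (σ : Y.Matching) (g : ℕ) (e : Y.E) (X : Finset Y.E) : Finset Y.E :=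
  Finset.univ.filter (fun e' => Y.cls e' = Y.cls e ∧ Far (Y.graph σ) g e e' ∧ e' ∉ X)

theorem mem_partners (σ : Y.Matching) (g : ℕ) (e : Y.E) (X : Finset Y.E) (e' : Y.E) :
    e' ∈ partners Y σ g e X ↔ Y.cls e' = Y.cls e ∧ Far (Y.graph σ) g e e' ∧ e' ∉ X := by
  simp [partners]

theorem card_partners (hB : Y.Bounds π τ q N) (σ : Y.Matching) (g : ℕ) (e : Y.E)
    (X : Finset Y.E) :
    (q + 1) * N ≤ (partners Y σ g e X).card + X.card + 2 * (Fintype.card T + 3) ^ (g + 1) := by
  classical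
  have h1 := hB.lower e
  have h2 := card_near_le (Y.graph σ) (Y.graph_bip σ) (Y.graph_immersed σ hB.slots_inj) g e
  have h3 : (Fintype.card T + 1) ^ g ≤ (Fintype.card T + 3) ^ (g + 1) :=
    le_trans (Nat.pow_le_pow_left (by omega) g) (Nat.pow_le_pow_right (by omega) (by omega))
  set Nr := Finset.univ.filter
    (fun e' : Y.E => (Y.graph σ).lab e' = (Y.graph σ).lab e ∧ ¬ Far (Y.graph σ) g e e') with hNr
  have hsub : Finset.univ.filter (fun e' : Y.E => Y.cls e' = Y.cls e) ⊆
      partners Y σ g e X ∪ X ∪ Nr := by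
    intro e' he'
    simp only [Finset.mem_filter, Finset.mem_univ, true_and] at he'
    simp only [Finset.mem_union, mem_partners, hNr, Finset.mem_filter, Finset.mem_univ, true_and]
    by_cases hX : e' ∈ X
    · exact Or.inl (Or.inr hX)
    · by_cases hF : Far (Y.graph σ) g e e'
      · exact Or.inl (Or.inl ⟨he', hF, hX⟩)
      · exact Or.inr ⟨congrArg Prod.fst he', hF⟩
  have h4 := Finset.card_le_card hsub
  have h5 := Finset.card_union_le (partners Y σ g e X ∪ X) Nr
  have h6 := Finset.card_union_le (partners Y σ g e X) X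
  have h7 : Nr.card ≤ 2 * (Fintype.card T + 1) ^ g := by convert h2
  omega

theorem switch_girth (σ : Y.Matching) {e e' : Y.E} (hc : Y.cls e' = Y.cls e) {g h : ℕ}
    (hh : h ≤ g) (hgirth : (Y.graph σ).GirthGt h) (hfar : Far (Y.graph σ) g e e') :
    (Y.graph (switch Y σ e e')).GirthGt h := by
  intro x l hw hnb hne
  by_contra hlt
  have hle : l.length ≤ h := by omega
  have := (switch_avoid Y σ hc hh (fun x l h1 h2 h3 => (hgirth x l h1 h2 h3).le) hfar x l hw hnb
    hle).2
  exact hlt (hgirth x l this hnb hne)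

/-- closed non-backtracking walks of length `k` -/
def bad (σ : Y.Matching) (k : ℕ) : Set (List (Y.E × Bool)) :=
  {l | l.length = k ∧ NB l ∧ ∃ x, (Y.graph σ).IsWalk x l x}

theorem bad_finite (σ : Y.Matching) (k : ℕ) : (bad Y σ k).Finite :=
  (List.finite_length_eq (Y.E × Bool) k).subset (fun _ hl => hl.1)

theorem girth_step (hB : Y.Bounds π τ q N) (g : ℕ)
    (hN : 2 * (Fintype.card T + 3) ^ (g + 1) < (q + 1) * N) (h : ℕ) (hh : h + 1 ≤ g) (n : ℕ) :
    ∀ σ : Y.Matching, (Y.graph σ).GirthGt h → (bad Y σ (h + 1)).ncard = n →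
      ∃ σ' : Y.Matching, (Y.graph σ').GirthGt (h + 1) := by
  induction n using Nat.strong_induction_on with
  | _ n ih =>
    intro σ hσ hn
    by_cases hemp : bad Y σ (h + 1) = ∅
    · refine ⟨σ, fun x l hw hnb hne => ?_⟩
      have h1 := hσ x l hw hnb hne
      by_contra h2
      have : l ∈ bad Y σ (h + 1) := ⟨by omega, hnb, x, hw⟩
      rw [hemp] at this
      exact this
    · obtain ⟨l, hl⟩ := Set.nonempty_iff_ne_empty.mpr hemp
      have hlen := hl.1
      cases l with
      | nil => simp at hlen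
      | cons d r =>
        have hp := card_partners Y hB σ g d.1 ∅
        have hpos : 0 < (partners Y σ g d.1 ∅).card := by
          simp only [Finset.card_empty] at hp; omega
        obtain ⟨e', he'⟩ := Finset.card_pos.mp hpos
        rw [mem_partners] at he'
        obtain ⟨hc, hfar, -⟩ := he'
        have hss : bad Y (switch Y σ d.1 e') (h + 1) ⊂ bad Y σ (h + 1) := by
          have hav : ∀ l' ∈ bad Y (switch Y σ d.1 e') (h + 1),
              (∀ d' ∈ l', ¬ (d'.1 = d.1 ∨ d'.1 = e')) ∧ l' ∈ bad Y σ (h + 1) := by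
            rintro l' ⟨h1, h2, x, h3⟩
            have := switch_avoid Y σ hc hh (fun x l h1 h2 h3 => hσ x l h1 h2 h3) hfar x l' h3 h2
              h1.le
            exact ⟨this.1, h1, h2, x, this.2⟩
          refine ⟨fun l' hl' => (hav l' hl').2, fun hsup => ?_⟩
          exact (hav _ (hsup hl)).1 d (by simp) (Or.inl rfl)
        have hlt := Set.ncard_lt_ncard hss (bad_finite Y σ (h + 1))
        exact ih _ (hn ▸ hlt) (switch Y σ d.1 e') (switch_girth Y σ hc (by omega) hσ hfar) rfl

theorem exists_girth (hB : Y.Bounds π τ q N) (g : ℕ)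
    (hN : 2 * (Fintype.card T + 3) ^ (g + 1) < (q + 1) * N) (h : ℕ) (hh : h ≤ g) :
    ∃ σ : Y.Matching, (Y.graph σ).GirthGt h := by
  induction h with
  | zero =>
    obtain ⟨σ⟩ := matching_nonempty Y hB
    exact ⟨σ, fun x l _ _ hne => List.length_pos_iff.mpr hne⟩
  | succ h ih =>
    obtain ⟨σ, hσ⟩ := ih (by omega)
    exact girth_step Y hB g hN h hh _ σ hσ rfl

theorem mem_good (g : ℕ) (σ : Y.Matching) : σ ∈ Y.Good g ↔ (Y.graph σ).GirthGt g := by
  simp [SlotSys.Good]

open Classical in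
/-- good matchings containing the pairs of `h` -/
noncomputable def ext (g : ℕ) (h : Finset (Y.E × Y.WS)) : Finset Y.Matching :=
  (Y.Good g).filter (fun σ => ∀ x ∈ h, σ.1 x.1 = x.2)

theorem mem_ext (g : ℕ) (h : Finset (Y.E × Y.WS)) (σ : Y.Matching) :
    σ ∈ ext Y g h ↔ (Y.graph σ).GirthGt g ∧ ∀ x ∈ h, σ.1 x.1 = x.2 := by
  simp only [ext, Finset.mem_filter, mem_good]

theorem count_step (hB : Y.Bounds π τ q N) (g : ℕ) (h : Finset (Y.E × Y.WS)) (a : Y.E × Y.WS)
    (ha : a ∉ h) (m : ℕ) (hm : m + h.card + 2 * (Fintype.card T + 3) ^ (g + 1) ≤ (q + 1) * N) :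
    (ext Y g (Finset.cons a h ha)).card * m ≤ (ext Y g h).card := by
  classical
  set X : Finset Y.E := h.image Prod.fst with hX
  have hXc : X.card ≤ h.card := Finset.card_image_le
  set S := (ext Y g (Finset.cons a h ha)).sigma (fun σ => partners Y σ g a.1 X) with hS
  have h1 : (ext Y g (Finset.cons a h ha)).card * m ≤ S.card := by
    rw [hS, Finset.card_sigma, ← smul_eq_mul]
    apply Finset.card_nsmul_le_sum
    intro σ _
    have := card_partners Y hB σ g a.1 X
    omega
  refine le_trans h1 ?_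
  apply Finset.card_le_card_of_injOn (fun p => switch Y p.1 a.1 p.2)
  · rintro ⟨σ, e'⟩ hp
    simp only [hS, Finset.coe_sigma, Set.mem_sigma_iff, Finset.mem_coe, mem_ext,
      mem_partners] at hp
    obtain ⟨⟨hg, hh⟩, hc, hfar, hX'⟩ := hp
    simp only [Finset.mem_coe, mem_ext]
    refine ⟨switch_girth Y σ hc le_rfl hg hfar, fun x hx => ?_⟩
    have n1 : x.1 ≠ e' := fun h' => hX' (Finset.mem_image.mpr ⟨x, hx, h'⟩)
    have n2 : x.1 ≠ a.1 := by
      intro h'
      have e1 := hh x (Finset.mem_cons.mpr (Or.inr hx))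
      have e2 := hh a (Finset.mem_cons.mpr (Or.inl rfl))
      have : x = a := Prod.ext h' (by rw [← e1, ← e2, h'])
      exact ha (this ▸ hx)
    rw [switch_apply Y σ hc, swap_apply_of_ne_of_ne n2 n1]
    exact hh x (Finset.mem_cons.mpr (Or.inr hx))
  · rintro ⟨σ₁, e₁⟩ hp₁ ⟨σ₂, e₂⟩ hp₂ heq
    simp only [hS, Finset.coe_sigma, Set.mem_sigma_iff, Finset.mem_coe, mem_ext,
      mem_partners] at hp₁ hp₂
    obtain ⟨⟨-, hh₁⟩, hc₁, -, -⟩ := hp₁
    obtain ⟨⟨-, hh₂⟩, hc₂, -, -⟩ := hp₂
    simp only at heq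
    have a1 := hh₁ a (Finset.mem_cons.mpr (Or.inl rfl))
    have a2 := hh₂ a (Finset.mem_cons.mpr (Or.inl rfl))
    have b1 : (switch Y σ₁ a.1 e₁).1 e₁ = a.2 := by
      rw [switch_apply Y σ₁ hc₁, swap_apply_right, a1]
    have b2 : (switch Y σ₂ a.1 e₂).1 e₂ = a.2 := by
      rw [switch_apply Y σ₂ hc₂, swap_apply_right, a2]
    have he : e₁ = e₂ := by
      apply (switch Y σ₂ a.1 e₂).1.injective
      rw [b2, ← heq, b1]
    subst he
    have hσ : σ₁ = σ₂ := by
      apply Subtype.ext
      ext1 x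
      have c1 := switch_apply Y σ₁ hc₁ (swap a.1 e₁ x)
      have c2 := switch_apply Y σ₂ hc₂ (swap a.1 e₁ x)
      rw [swap_apply_self] at c1 c2
      rw [← c1, ← c2, heq]
    subst hσ
    rfl

theorem count_all (hB : Y.Bounds π τ q N) (g : ℕ) (k : ℕ) (h : Finset (Y.E × Y.WS))
    (hk : h.card ≤ k) :
    (ext Y g h).card * ((q + 1) * N - (k + 2 * (Fintype.card T + 3) ^ (g + 1))) ^ h.card ≤
      (Y.Good g).card := by
  induction h using Finset.cons_induction with
  | empty =>
    simp only [Finset.card_empty, pow_zero, mul_one]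
    apply Finset.card_le_card
    intro σ hσ
    rw [mem_ext] at hσ
    exact (mem_good Y g σ).mpr hσ.1
  | cons a h ha ih =>
    rw [Finset.card_cons] at hk ⊢
    set m := (q + 1) * N - (k + 2 * (Fintype.card T + 3) ^ (g + 1)) with hm
    by_cases h0 : m = 0
    · rw [h0]; simp
    · have h1 := count_step Y hB g h a ha m (by omega)
      have h2 := ih (by omega)
      calc (ext Y g (Finset.cons a h ha)).card * m ^ (h.card + 1)
          = ((ext Y g (Finset.cons a h ha)).card * m) * m ^ h.card := by ring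
        _ ≤ (ext Y g h).card * m ^ h.card := Nat.mul_le_mul_right _ h1
        _ ≤ _ := h2

end Crest.Agent.R177.SwitchAux
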