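import Crest.Agent.R177.DefsPat

/-!
# Row 177, task Switch: the key lemma on switching the heads of two far apart edges
-/

set_option autoImplicit false

namespace Crest.Agent.R177.SwitchAux

open Equiv

variable {V E T : Type}

theorem isWalk_append (Γ : LG V E T) (l₁ l₂ : List (E × Bool)) (x y : V) :
    Γ.IsWalk x (l₁ ++ l₂) y ↔ ∃ m, Γ.IsWalk x l₁ m ∧ Γ.IsWalk m l₂ y := by
  induction l₁ generalizing x with
  | nil => simp [LG.IsWalk]
  | cons d l ih =>
    simp only [List.cons_append, LG.IsWalk, ih]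
    constructor
    · rintro ⟨h1, m, h2, h3⟩; exact ⟨m, ⟨h1, h2⟩, h3⟩
    · rintro ⟨m, ⟨h1, h2⟩, h3⟩; exact ⟨h1, m, h2, h3⟩

theorem isWalk_reverse (Γ : LG V E T) (l : List (E × Bool)) (x y : V) (h : Γ.IsWalk x l y) :
    Γ.IsWalk y ((l.map flp).reverse) x := by
  induction l generalizing x with
  | nil => simp only [LG.IsWalk] at h; simp [LG.IsWalk, h]
  | cons d l ih =>
    obtain ⟨h1, h2⟩ := h
    simp only [List.map_cons, List.reverse_cons]
    rw [isWalk_append]
    exact ⟨Γ.en d, ih _ h2, by simp [LG.IsWalk, h1]⟩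

theorem isWalk_congr (Γ Γ' : LG V E T) (l : List (E × Bool))
    (h : ∀ d ∈ l, Γ'.src d.1 = Γ.src d.1 ∧ Γ'.tgt d.1 = Γ.tgt d.1) (x y : V) :
    Γ'.IsWalk x l y ↔ Γ.IsWalk x l y := by
  induction l generalizing x with
  | nil => simp [LG.IsWalk]
  | cons d l ih =>
    have hd := h d (by simp)
    have e1 : Γ'.st d = Γ.st d := by simp [LG.st, hd.1, hd.2]
    have e2 : Γ'.en d = Γ.en d := by simp [LG.en, hd.1, hd.2]
    simp only [LG.IsWalk, e1, e2]
    rw [ih (fun d' hd' => h d' (by simp [hd']))]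

theorem split_first {X : Type} (p : X → Prop) (l : List X) (h : ∃ d ∈ l, p d) :
    ∃ l₁ d l₂, l = l₁ ++ d :: l₂ ∧ p d ∧ ∀ x ∈ l₁, ¬ p x := by
  induction l with
  | nil => simp at h
  | cons a l ih =>
    by_cases ha : p a
    · exact ⟨[], a, l, rfl, ha, by simp⟩
    · obtain ⟨d, hd, hp⟩ := h
      have hd' : d ∈ l := by
        rcases List.mem_cons.mp hd with rfl | h'
        · exact absurd hp ha
        · exact h'
      obtain ⟨l₁, d', l₂, e, h1, h2⟩ := ih ⟨d, hd', hp⟩
      refine ⟨a :: l₁, d', l₂, by simp [e], h1, ?_⟩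
      intro x hx
      rcases List.mem_cons.mp hx with rfl | h'
      · exact ha
      · exact h2 x h'

/-- `v` is an end of the edge `a` -/
def IsEnd (Γ : LG V E T) (a : E) (v : V) : Prop := v = Γ.src a ∨ v = Γ.tgt a

/-- no walk of length at most `g` joins an end of `e` to an end of `e'` -/
def Far (Γ : LG V E T) (g : ℕ) (e e' : E) : Prop :=
  ∀ a b l, IsEnd Γ e a → IsEnd Γ e' b → Γ.IsWalk a l b → g < l.length

theorem Far.symm {Γ : LG V E T} {g : ℕ} {e e' : E} (h : Far Γ g e e') : Far Γ g e' e := by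
  intro a b l ha hb hl
  have := h b a _ hb ha (isWalk_reverse Γ l a b hl)
  simpa using this

theorem Far.ne {Γ : LG V E T} {g : ℕ} {e e' : E} (h : Far Γ g e e') {a b : V}
    (ha : IsEnd Γ e a) (hb : IsEnd Γ e' b) : a ≠ b := by
  intro hab
  have := h a b [] ha hb hab
  simp at this

theorem nb_append_single {s : List (E × Bool)} (hs : NB s) (d : E × Bool)
    (hd : ∀ x ∈ s, x.1 ≠ d.1) : NB (s ++ [d]) := by
  unfold NB at *
  rw [List.isChain_append]
  refine ⟨hs, by simp, ?_⟩
  intro x hx y hy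
  have hxs : x ∈ s := List.mem_of_mem_getLast? hx
  simp only [List.head?_cons, Option.mem_def, Option.some.injEq] at hy
  subst hy
  intro h
  apply hd x hxs
  rw [h]; rfl

/-- a short non-backtracking walk between ends of `a` that avoids `a` is trivial -/
theorem short_between_ends (Γ : LG V E T) (h : ℕ)
    (hgirth : ∀ x l, Γ.IsWalk x l x → NB l → l ≠ [] → h ≤ l.length)
    (a : E) (m₁ m₂ : V) (h1 : IsEnd Γ a m₁) (h2 : IsEnd Γ a m₂) (s : List (E × Bool))
    (hs : Γ.IsWalk m₁ s m₂) (hnb : NB s) (hav : ∀ x ∈ s, x.1 ≠ a) (hlen : s.length + 1 < h) :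
    s = [] := by
  by_contra hne
  by_cases hm : m₁ = m₂
  · subst hm
    have := hgirth _ _ hs hnb hne
    omega
  · have key : ∃ b : Bool, Γ.st (a, b) = m₂ ∧ Γ.en (a, b) = m₁ := by
      rcases h1 with h1 | h1 <;> rcases h2 with h2 | h2
      · exact absurd (h1.trans h2.symm) hm
      · exact ⟨false, by simp [LG.st, h2], by simp [LG.en, h1]⟩
      · exact ⟨true, by simp [LG.st, h2], by simp [LG.en, h1]⟩
      · exact absurd (h1.trans h2.symm) hm
    obtain ⟨b, hb1, hb2⟩ := key
    have hw : Γ.IsWalk m₁ (s ++ [(a, b)]) m₁ := by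
      rw [isWalk_append]
      exact ⟨m₂, hs, by simp [LG.IsWalk, hb1, hb2]⟩
    have := hgirth _ _ hw (nb_append_single hnb (a, b) hav) (by simp)
    simp at this
    omega

section Key

variable [DecidableEq E] (Γ Γ' : LG V E T) (e e' : E) (hs : ∀ a, Γ'.src a = Γ.src a)
  (ht : ∀ a, Γ'.tgt a = Γ.tgt (swap e e' a))

include hs ht

theorem cross (d : E × Bool) (hd : d.1 = e ∨ d.1 = e') :
    (IsEnd Γ e (Γ'.st d) ∧ IsEnd Γ e' (Γ'.en d)) ∨
      (IsEnd Γ e' (Γ'.st d) ∧ IsEnd Γ e (Γ'.en d)) := by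
  rcases d with ⟨a, b⟩
  simp only at hd
  rcases hd with rfl | rfl <;> cases b <;> simp [IsEnd, LG.st, LG.en, hs, ht]

theorem st_inj (hb : Γ.Bip) {g : ℕ} (hfar : Far Γ g e e') (d d' : E × Bool)
    (hd : d.1 = e ∨ d.1 = e') (hd' : d'.1 = e ∨ d'.1 = e') (h : Γ'.st d = Γ'.st d') : d = d' := by
  have n1 : Γ.src e ≠ Γ.src e' := hfar.ne (Or.inl rfl) (Or.inl rfl)
  have n2 : Γ.tgt e ≠ Γ.tgt e' := hfar.ne (Or.inr rfl) (Or.inr rfl)
  have b1 := hb e e
  have b2 := hb e e'
  have b3 := hb e' e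
  have b4 := hb e' e'
  rcases d with ⟨a, b⟩
  rcases d' with ⟨a', b'⟩
  simp only at hd hd'
  rcases hd with rfl | rfl <;> rcases hd' with rfl | rfl <;> cases b <;> cases b' <;>
    simp only [LG.st, hs, ht, cond_true, cond_false, swap_apply_left, swap_apply_right] at h <;>
    first
      | rfl
      | exact absurd h n1
      | exact absurd h.symm n1
      | exact absurd h n2
      | exact absurd h.symm n2
      | exact absurd h b1
      | exact absurd h.symm b1
      | exact absurd h b2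
      | exact absurd h.symm b2
      | exact absurd h b3
      | exact absurd h.symm b3
      | exact absurd h b4
      | exact absurd h.symm b4

theorem isWalk_switch (l : List (E × Bool)) (hl : ∀ d ∈ l, ¬ (d.1 = e ∨ d.1 = e')) (x y : V) :
    Γ'.IsWalk x l y ↔ Γ.IsWalk x l y := by
  apply isWalk_congr
  intro d hd
  have := hl d hd
  push Not at this
  exact ⟨hs _, by rw [ht, swap_apply_of_ne_of_ne this.1 this.2]⟩

/-- Key lemma: short closed non-backtracking walks of the switched graph avoid `e` and `e'`. -/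
theorem key (hb : Γ.Bip) {g h : ℕ} (hh : h ≤ g)
    (hgirth : ∀ x l, Γ.IsWalk x l x → NB l → l ≠ [] → h ≤ l.length) (hfar : Far Γ g e e')
    (x : V) (l : List (E × Bool)) (hw : Γ'.IsWalk x l x) (hnb : NB l) (hlen : l.length ≤ h) :
    ∀ d ∈ l, ¬ (d.1 = e ∨ d.1 = e') := by
  by_contra hcon
  push Not at hcon
  have hex : ∃ d ∈ l, d.1 = e ∨ d.1 = e' := by
    obtain ⟨d, hd, h1⟩ := hcon
    exact ⟨d, hd, h1⟩
  obtain ⟨l₁, d, r, rfl, hd, hl₁⟩ := split_first (fun d : E × Bool => d.1 = e ∨ d.1 = e') l hex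
  rw [isWalk_append] at hw
  obtain ⟨m, hw1, hw2⟩ := hw
  obtain ⟨hm, hw2⟩ := hw2
  by_cases hr : ∃ d' ∈ r, d'.1 = e ∨ d'.1 = e'
  · obtain ⟨s, d', l₂, rfl, hd', hs'⟩ :=
      split_first (fun d : E × Bool => d.1 = e ∨ d.1 = e') r hr
    rw [isWalk_append] at hw2
    obtain ⟨m₂, hw3, hm₂, -⟩ := hw2
    have hw3' : Γ.IsWalk (Γ'.en d) s m₂ := (isWalk_switch Γ Γ' e e' hs ht s hs' _ _).mp hw3
    have hlen' : s.length + 1 < h := by
      simp only [List.length_append, List.length_cons] at hlen; omega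
    have hnb1 : NB (d :: (s ++ d' :: l₂)) := List.IsChain.right_of_append hnb
    have hnbs : NB s := List.IsChain.left_of_append (List.IsChain.tail hnb1)
    have hse : ∀ y ∈ s, y.1 ≠ e := fun y hy h => hs' y hy (Or.inl h)
    have hse' : ∀ y ∈ s, y.1 ≠ e' := fun y hy h => hs' y hy (Or.inr h)
    have hnil : s = [] := by
      rcases cross Γ Γ' e e' hs ht d hd with ⟨-, c1⟩ | ⟨-, c1⟩ <;>
        rcases cross Γ Γ' e e' hs ht d' hd' with ⟨c2, -⟩ | ⟨c2, -⟩ <;> rw [hm₂] at c2
      · have := hfar.symm _ _ _ c1 c2 hw3'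
        omega
      · exact short_between_ends Γ h hgirth e' _ _ c1 c2 s hw3' hnbs hse' hlen'
      · exact short_between_ends Γ h hgirth e _ _ c1 c2 s hw3' hnbs hse hlen'
      · have := hfar _ _ _ c1 c2 hw3'
        omega
    subst hnil
    have h1 : Γ'.en d = m₂ := hw3
    have h2 : d' = flp d := by
      apply st_inj Γ Γ' e e' hs ht hb hfar d' (flp d) hd' hd
      rw [LG.st_flp, h1, hm₂]
    have h3 : d' ≠ flp d := by
      have := hnb1
      simp only [NB, List.nil_append, List.isChain_cons_cons] at this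
      exact this.1
    exact h3 h2
  · push Not at hr
    have hr' : ∀ d' ∈ r, ¬ (d'.1 = e ∨ d'.1 = e') := by
      intro d' hd' h
      rcases h with h | h
      · exact (hr d' hd').1 h
      · exact (hr d' hd').2 h
    have w1 : Γ.IsWalk x l₁ m := (isWalk_switch Γ Γ' e e' hs ht l₁ hl₁ _ _).mp hw1
    have w2 : Γ.IsWalk (Γ'.en d) r x := (isWalk_switch Γ Γ' e e' hs ht r hr' _ _).mp hw2
    have w3 : Γ.IsWalk (Γ'.en d) (r ++ l₁) (Γ'.st d) := by
      rw [isWalk_append]; exact ⟨x, w2, hm ▸ w1⟩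
    have hl : (r ++ l₁).length ≤ g := by
      simp only [List.length_append, List.length_cons] at hlen ⊢; omega
    rcases cross Γ Γ' e e' hs ht d hd with ⟨c1, c2⟩ | ⟨c1, c2⟩
    · have := hfar.symm _ _ _ c2 c1 w3
      omega
    · have := hfar _ _ _ c2 c1 w3
      omega

end Key

/-! ## Counting near edges -/

section Count

variable [Fintype V] [Fintype E] [Fintype T] (Γ : LG V E T)

open Classical in
/-- vertices reachable by walks of length at most `k` -/
noncomputable def ball (a : V) (k : ℕ) : Finset V :=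
  Finset.univ.filter (fun b => ∃ l, Γ.IsWalk a l b ∧ l.length ≤ k)

omit [Fintype E] [Fintype T] in
theorem mem_ball (a b : V) (k : ℕ) :
    b ∈ ball Γ a k ↔ ∃ l, Γ.IsWalk a l b ∧ l.length ≤ k := by
  simp [ball]

omit [Fintype V] [Fintype E] [Fintype T] in
theorem eq_of_st_lab (hb : Γ.Bip) (hi : Γ.Immersed) (d d' : E × Bool) (h : Γ.st d = Γ.st d')
    (hl : Γ.lab d.1 = Γ.lab d'.1) : d = d' := by
  apply hi d d' h
  rcases d with ⟨a, b⟩
  rcases d' with ⟨a', b'⟩
  simp only at hl
  cases b <;> cases b' <;> simp only [LG.st, cond_true, cond_false] at h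
  · simp [LG.lb, hl]
  · exact absurd h.symm (hb _ _)
  · exact absurd h (hb _ _)
  · simp [LG.lb, hl]

open Classical in
omit [Fintype V] in
theorem card_darts_le (hb : Γ.Bip) (hi : Γ.Immersed) (a : V) :
    (Finset.univ.filter (fun d : E × Bool => Γ.st d = a)).card ≤ Fintype.card T := by
  rw [← Finset.card_univ]
  apply Finset.card_le_card_of_injOn (fun d => Γ.lab d.1) (by intro d _; simp)
  intro d hd d' hd' h
  simp only [Finset.coe_filter, Finset.mem_univ, true_and, Set.mem_ofPred_eq] at hd hd'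
  exact eq_of_st_lab Γ hb hi d d' (hd.trans hd'.symm) h

theorem card_ball_le (hb : Γ.Bip) (hi : Γ.Immersed) (k : ℕ) (a : V) :
    (ball Γ a k).card ≤ (Fintype.card T + 1) ^ k := by
  classical
  induction k generalizing a with
  | zero =>
    rw [pow_zero]
    apply Finset.card_le_one.mpr
    intro b hb c hc
    rw [mem_ball] at hb hc
    obtain ⟨l, hl, h0⟩ := hb
    obtain ⟨l', hl', h0'⟩ := hc
    have e1 : l = [] := List.length_eq_zero_iff.mp (by omega)
    have e2 : l' = [] := List.length_eq_zero_iff.mp (by omega)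
    subst e1 e2
    exact (show a = b from hl).symm.trans hl'
  | succ k ih =>
    have hsub : ball Γ a (k + 1) ⊆ insert a
        ((Finset.univ.filter (fun d : E × Bool => Γ.st d = a)).biUnion
          (fun d => ball Γ (Γ.en d) k)) := by
      intro b hb
      rw [mem_ball] at hb
      obtain ⟨l, hl, hk⟩ := hb
      cases l with
      | nil => exact Finset.mem_insert.mpr (Or.inl (show a = b from hl).symm)
      | cons d l =>
        obtain ⟨h1, h2⟩ := hl
        refine Finset.mem_insert.mpr (Or.inr ?_)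
        refine Finset.mem_biUnion.mpr ⟨d, by simp [h1], ?_⟩
        rw [mem_ball]
        exact ⟨l, h2, by simpa using hk⟩
    have h1 := Finset.card_le_card hsub
    have h2 := Finset.card_insert_le a
      ((Finset.univ.filter (fun d : E × Bool => Γ.st d = a)).biUnion (fun d => ball Γ (Γ.en d) k))
    have h3 := Finset.card_biUnion_le_card_mul
      (Finset.univ.filter (fun d : E × Bool => Γ.st d = a)) (fun d => ball Γ (Γ.en d) k)
      ((Fintype.card T + 1) ^ k) (fun d _ => ih _)
    have h4 := card_darts_le Γ hb hi a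
    have h5 : (Finset.univ.filter (fun d : E × Bool => Γ.st d = a)).card *
        (Fintype.card T + 1) ^ k ≤ Fintype.card T * (Fintype.card T + 1) ^ k :=
      Nat.mul_le_mul_right _ (by convert h4)
    have h6 : 1 ≤ (Fintype.card T + 1) ^ k := Nat.one_le_pow _ _ (Nat.succ_pos _)
    rw [pow_succ]
    nlinarith

open Classical in
theorem card_near_le (hb : Γ.Bip) (hi : Γ.Immersed) (g : ℕ) (e : E) :
    (Finset.univ.filter (fun e' : E => Γ.lab e' = Γ.lab e ∧ ¬ Far Γ g e e')).card ≤
      2 * (Fintype.card T + 1) ^ g := by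
  set Bl := ball Γ (Γ.src e) g ∪ ball Γ (Γ.tgt e) g with hBl
  have hc : Bl.card ≤ 2 * (Fintype.card T + 1) ^ g := by
    have h1 := Finset.card_union_le (ball Γ (Γ.src e) g) (ball Γ (Γ.tgt e) g)
    have h2 := card_ball_le Γ hb hi g (Γ.src e)
    have h3 := card_ball_le Γ hb hi g (Γ.tgt e)
    rw [hBl]; omega
  refine le_trans ?_ hc
  apply Finset.card_le_card_of_injOn
    (fun e' => if Γ.src e' ∈ Bl then Γ.src e' else Γ.tgt e')
  · intro e' he'
    simp only [Finset.coe_filter, Finset.mem_univ, true_and, Set.mem_ofPred_eq] at he'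
    obtain ⟨-, hn⟩ := he'
    unfold Far at hn
    push Not at hn
    obtain ⟨a, b, l, ha, hb', hl, hlen⟩ := hn
    have hbB : b ∈ Bl := by
      rw [hBl, Finset.mem_union, mem_ball, mem_ball]
      rcases ha with rfl | rfl
      · exact Or.inl ⟨l, hl, hlen⟩
      · exact Or.inr ⟨l, hl, hlen⟩
    by_cases h : Γ.src e' ∈ Bl
    · simp [h]
    · simp only [h, if_false, Finset.mem_coe]
      rcases hb' with rfl | rfl
      · exact absurd hbB h
      · exact hbB
  · intro e₁ h₁ e₂ h₂ h
    simp only [Finset.coe_filter, Finset.mem_univ, true_and, Set.mem_ofPred_eq] at h₁ h₂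
    have hl : Γ.lab e₁ = Γ.lab e₂ := h₁.1.trans h₂.1.symm
    by_cases c1 : Γ.src e₁ ∈ Bl <;> by_cases c2 : Γ.src e₂ ∈ Bl <;>
      simp only [c1, c2, if_true, if_false] at h
    · exact congrArg Prod.fst (eq_of_st_lab Γ hb hi (e₁, true) (e₂, true) h hl)
    · exact absurd h (hb _ _)
    · exact absurd h.symm (hb _ _)
    · exact congrArg Prod.fst (eq_of_st_lab Γ hb hi (e₁, false) (e₂, false) h hl)

end Count

end Crest.Agent.R177.SwitchAux
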